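import Vale.Agent.Lib.P134.H28.Profile

/-!
# P134 (helper28): constant `|∇ψ|^2` and constant `Δψ` force `ψ` to be affine
-/

namespace Vale.Agent.Lib.P134.H28

open Finset

lemma clm_eq_zero_of_basis {n : ℕ} (L : (Fin n → ℝ) →L[ℝ] ℝ)
    (hL : ∀ j, L (Pi.single j 1) = 0) : L = 0 := by
  ext v
  rw [clm_apply_eq_sum]
  simp [hL]

/-- Bochner-type computation: if `|∇ψ|^2` and `Δψ` are constant on `ℝ^n` then all second
coordinate derivatives of `ψ` vanish. -/
lemma hessian_zero_of_const {n : ℕ} (ψ : (Fin n → ℝ) → ℝ) (hψ : ContDiff ℝ 3 ψ)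
    (hp : ∀ x y, gradSq ψ x = gradSq ψ y) (hq : ∀ x y, lap ψ x = lap ψ y) :
    ∀ (x : Fin n → ℝ) (i j : Fin n), pd j (pd i ψ) x = 0 := by
  have hψ2 : ContDiff ℝ 2 ψ := hψ.of_le (by norm_num)
  have hpd1 : ∀ i, ContDiff ℝ 2 (pd i ψ) := fun i => contDiff_pd i hψ (by norm_num)
  have hpd2 : ∀ i j, ContDiff ℝ 1 (pd j (pd i ψ)) := fun i j =>
    contDiff_pd j (hpd1 i) (by norm_num)
  have d1 : ∀ i, Differentiable ℝ (pd i ψ) := fun i => (hpd1 i).differentiable (by norm_num)
  have d2 : ∀ i j, Differentiable ℝ (pd j (pd i ψ)) := fun i j =>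
    (hpd2 i j).differentiable (by norm_num)
  -- Step 1
  have step1 : ∀ (j : Fin n) (x : Fin n → ℝ), ∑ i, pd i ψ x * pd j (pd i ψ) x = 0 := by
    intro j x
    have hconst : gradSq ψ = fun _ => gradSq ψ 0 := funext (fun y => hp y 0)
    have h1 : pd j (gradSq ψ) x = 0 := by rw [hconst]; exact pd_const j _ x
    have h2 : pd j (gradSq ψ) x = ∑ i, (pd j (pd i ψ) x * pd i ψ x + pd i ψ x * pd j (pd i ψ) x) := by
      have hg : gradSq ψ = fun y => ∑ i, pd i ψ y * pd i ψ y := by
        funext y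
        unfold gradSq
        apply Finset.sum_congr rfl
        intro i _
        ring
      rw [hg, pd_sum univ j (fun i y => pd i ψ y * pd i ψ y) x
        (fun i _ => (d1 i x).mul (d1 i x))]
      apply Finset.sum_congr rfl
      intro i _
      rw [pd_mul j _ _ x (d1 i x) (d1 i x)]
    rw [h2] at h1
    have h3 : ∑ i, (pd j (pd i ψ) x * pd i ψ x + pd i ψ x * pd j (pd i ψ) x) =
        2 * ∑ i, pd i ψ x * pd j (pd i ψ) x := by
      rw [Finset.mul_sum]
      apply Finset.sum_congr rfl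
      intro i _
      ring
    rw [h3] at h1
    linarith
  -- Step 2
  have step2 : ∀ (j : Fin n) (x : Fin n → ℝ),
      ∑ i, (pd j (pd i ψ) x * pd j (pd i ψ) x + pd i ψ x * pd j (pd j (pd i ψ)) x) = 0 := by
    intro j x
    have hS : (fun y => ∑ i, pd i ψ y * pd j (pd i ψ) y) = fun _ => (0 : ℝ) :=
      funext (fun y => step1 j y)
    have h1 : pd j (fun y => ∑ i, pd i ψ y * pd j (pd i ψ) y) x = 0 := by
      rw [hS]; exact pd_const j _ x
    rw [pd_sum univ j (fun i y => pd i ψ y * pd j (pd i ψ) y) x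
      (fun i _ => (d1 i x).mul (d2 i j x))] at h1
    rw [← h1]
    apply Finset.sum_congr rfl
    intro i _
    rw [pd_mul j _ _ x (d1 i x) (d2 i j x)]
  -- Step 3
  have step3 : ∀ (i : Fin n) (x : Fin n → ℝ), ∑ j, pd i (pd j (pd j ψ)) x = 0 := by
    intro i x
    have hconst : lap ψ = fun _ => lap ψ 0 := funext (fun y => hq y 0)
    have h1 : pd i (lap ψ) x = 0 := by rw [hconst]; exact pd_const i _ x
    have hl : lap ψ = fun y => ∑ j, pd j (pd j ψ) y := rfl
    rw [hl, pd_sum univ i (fun j y => pd j (pd j ψ) y) x (fun j _ => d2 j j x)] at h1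
    exact h1
  -- Step 4
  have step4 : ∀ (i j : Fin n) (x : Fin n → ℝ),
      pd j (pd j (pd i ψ)) x = pd i (pd j (pd j ψ)) x := by
    intro i j x
    have c1 : pd j (pd i ψ) = pd i (pd j ψ) := funext (fun y => pd_comm i j ψ hψ2 y)
    rw [c1]
    exact pd_comm i j (pd j ψ) (hpd1 j) x
  -- Step 5
  intro x
  have hsum : ∑ j, ∑ i, pd j (pd i ψ) x * pd j (pd i ψ) x = 0 := by
    have h1 : ∑ j, ∑ i, (pd j (pd i ψ) x * pd j (pd i ψ) x
        + pd i ψ x * pd j (pd j (pd i ψ)) x) = 0 :=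
      Finset.sum_eq_zero (fun j _ => step2 j x)
    have h2 : ∑ j, ∑ i, pd i ψ x * pd j (pd j (pd i ψ)) x = 0 := by
      rw [Finset.sum_comm]
      apply Finset.sum_eq_zero
      intro i _
      rw [← Finset.mul_sum]
      have : ∑ j, pd j (pd j (pd i ψ)) x = 0 := by
        rw [← step3 i x]
        apply Finset.sum_congr rfl
        intro j _
        exact step4 i j x
      rw [this, mul_zero]
    simp_rw [Finset.sum_add_distrib] at h1
    linarith
  have hnn : ∀ j ∈ (univ : Finset (Fin n)),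
      0 ≤ ∑ i, pd j (pd i ψ) x * pd j (pd i ψ) x :=
    fun j _ => Finset.sum_nonneg (fun i _ => mul_self_nonneg _)
  intro i j
  have h1 := (Finset.sum_eq_zero_iff_of_nonneg hnn).mp hsum j (mem_univ j)
  have h2 := (Finset.sum_eq_zero_iff_of_nonneg
    (fun i _ => mul_self_nonneg (pd j (pd i ψ) x))).mp h1 i (mem_univ i)
  exact mul_self_eq_zero.mp h2

/-- A function all of whose second coordinate derivatives vanish is affine. -/
lemma affine_of_hessian_zero {n : ℕ} (ψ : (Fin n → ℝ) → ℝ) (hψ : ContDiff ℝ 3 ψ)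
    (hz : ∀ (x : Fin n → ℝ) (i j : Fin n), pd j (pd i ψ) x = 0) :
    ∀ x, ψ x = ψ 0 + ∑ i, pd i ψ 0 * x i := by
  have hψd : Differentiable ℝ ψ := hψ.differentiable (by norm_num)
  have d1 : ∀ i, Differentiable ℝ (pd i ψ) := fun i =>
    (contDiff_pd (m := 2) i hψ (by norm_num)).differentiable (by norm_num)
  have hconst : ∀ (i : Fin n) (y : Fin n → ℝ), pd i ψ y = pd i ψ 0 := by
    intro i y
    apply is_const_of_fderiv_eq_zero (d1 i)
    intro z
    apply clm_eq_zero_of_basis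
    intro j
    have : fderiv ℝ (pd i ψ) z (Pi.single j 1) = pd j (pd i ψ) z := rfl
    rw [this, hz z i j]
  have hlin : ∀ y : Fin n → ℝ, DifferentiableAt ℝ (fun y : Fin n → ℝ => ∑ i, pd i ψ 0 * y i) y := by
    intro y
    fun_prop
  have hg : ∀ y : Fin n → ℝ, (fun y => ψ y - ∑ i, pd i ψ 0 * y i) y
      = (fun y => ψ y - ∑ i, pd i ψ 0 * y i) 0 := by
    intro y
    have hgd : Differentiable ℝ (fun y => ψ y - ∑ i, pd i ψ 0 * y i) :=
      fun z => (hψd z).sub (hlin z)
    apply is_const_of_fderiv_eq_zero hgd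
    intro z
    apply clm_eq_zero_of_basis
    intro j
    have h1 : fderiv ℝ (fun y => ψ y - ∑ i, pd i ψ 0 * y i) z (Pi.single j 1)
        = pd j (fun y => ψ y - ∑ i, pd i ψ 0 * y i) z := rfl
    rw [h1, pd_sub j _ _ z (hψd z) (hlin z),
      pd_sum univ j (fun i y => pd i ψ 0 * y i) z (fun i _ => by fun_prop)]
    have h2 : ∀ i : Fin n, pd j (fun y : Fin n → ℝ => pd i ψ 0 * y i) z
        = pd i ψ 0 * (if j = i then 1 else 0) := by
      intro i
      rw [pd_mul j (fun _ => pd i ψ 0) (fun y => y i) z (differentiableAt_const _)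
        (by fun_prop), pd_const, pd_coord]
      ring
    simp_rw [h2]
    simp [hconst j z]
  intro x
  have := hg x
  simp only [Pi.zero_apply, mul_zero, Finset.sum_const_zero, sub_zero] at this
  linarith

end Vale.Agent.Lib.P134.H28
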