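import Vale.Agent.Lib.P134.H28.Defs

/-!
# P134 (helper28): calculus rules for coordinate derivatives
-/

namespace Vale.Agent.Lib.P134.H28

open Finset

lemma contDiff_pd {n : ℕ} {m k : WithTop ℕ∞} (i : Fin n) {f : (Fin n → ℝ) → ℝ}
    (hf : ContDiff ℝ k f) (hmk : m + 1 ≤ k) : ContDiff ℝ m (pd i f) := by
  have h1 : ContDiff ℝ m (fderiv ℝ f) := hf.fderiv_right hmk
  exact h1.clm_apply contDiff_const

lemma pd_const {n : ℕ} (i : Fin n) (c : ℝ) (x : Fin n → ℝ) :
    pd i (fun _ : Fin n → ℝ => c) x = 0 := by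
  unfold pd
  simp

lemma pd_comp {n : ℕ} (i : Fin n) (h : ℝ → ℝ) (φ : (Fin n → ℝ) → ℝ) (x : Fin n → ℝ)
    (hh : DifferentiableAt ℝ h (φ x)) (hφ : DifferentiableAt ℝ φ x) :
    pd i (fun y => h (φ y)) x = deriv h (φ x) * pd i φ x := by
  have h1 : HasFDerivAt (h ∘ φ) (deriv h (φ x) • fderiv ℝ φ x) x :=
    HasDerivAt.comp_hasFDerivAt x hh.hasDerivAt hφ.hasFDerivAt
  have h2 : (fun y => h (φ y)) = h ∘ φ := rfl
  unfold pd
  rw [h2, h1.fderiv]
  simp

lemma pd_mul {n : ℕ} (i : Fin n) (f g : (Fin n → ℝ) → ℝ) (x : Fin n → ℝ)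
    (hf : DifferentiableAt ℝ f x) (hg : DifferentiableAt ℝ g x) :
    pd i (fun y => f y * g y) x = pd i f x * g x + f x * pd i g x := by
  unfold pd
  rw [fderiv_fun_mul hf hg]
  simp
  ring

lemma pd_sub {n : ℕ} (i : Fin n) (f g : (Fin n → ℝ) → ℝ) (x : Fin n → ℝ)
    (hf : DifferentiableAt ℝ f x) (hg : DifferentiableAt ℝ g x) :
    pd i (fun y => f y - g y) x = pd i f x - pd i g x := by
  unfold pd
  rw [fderiv_fun_sub hf hg]
  simp

lemma pd_coord {n : ℕ} (i j : Fin n) (x : Fin n → ℝ) :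
    pd i (fun y : Fin n → ℝ => y j) x = if i = j then 1 else 0 := by
  have h2 : HasFDerivAt (fun y : Fin n → ℝ => y j)
      (ContinuousLinearMap.proj j : (Fin n → ℝ) →L[ℝ] ℝ) x :=
    (ContinuousLinearMap.proj j : (Fin n → ℝ) →L[ℝ] ℝ).hasFDerivAt
  unfold pd
  rw [h2.fderiv]
  simp [Pi.single_apply, eq_comm]

lemma pd_sum {n : ℕ} {ι : Type*} (s : Finset ι) (i : Fin n) (f : ι → (Fin n → ℝ) → ℝ)
    (x : Fin n → ℝ) (hf : ∀ a ∈ s, DifferentiableAt ℝ (f a) x) :
    pd i (fun y => ∑ a ∈ s, f a y) x = ∑ a ∈ s, pd i (f a) x := by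
  unfold pd
  rw [fderiv_fun_sum hf]
  simp

/-- Symmetry of second coordinate derivatives of a `C^2` function. -/
lemma pd_comm {n : ℕ} (i j : Fin n) (f : (Fin n → ℝ) → ℝ) (hf : ContDiff ℝ 2 f)
    (x : Fin n → ℝ) : pd j (pd i f) x = pd i (pd j f) x := by
  have hd : DifferentiableAt ℝ (fderiv ℝ f) x :=
    ((hf.fderiv_right (m := 1) (by norm_num)).differentiable (by norm_num)) x
  have key : ∀ a b : Fin n, pd b (pd a f) x =
      fderiv ℝ (fderiv ℝ f) x (Pi.single b 1) (Pi.single a 1) := by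
    intro a b
    unfold pd
    rw [fderiv_clm_apply hd (differentiableAt_const _)]
    simp
  rw [key i j, key j i]
  exact (hf.contDiffAt.isSymmSndFDerivAt (by simp)) _ _

/-- Coordinate derivatives of a function invariant under a translation are invariant. -/
lemma pd_translate {n : ℕ} (i : Fin n) (f : (Fin n → ℝ) → ℝ) (a : Fin n → ℝ)
    (hf : ∀ y, f (y + a) = f y) (y : Fin n → ℝ) : pd i f (y + a) = pd i f y := by
  unfold pd
  rw [← fderiv_comp_add_right a]
  have : (fun z => f (z + a)) = f := funext hf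
  rw [this]

/-- The derivative along a direction of invariance vanishes. -/
lemma pd_invariant {n : ℕ} (j : Fin n) (f : (Fin n → ℝ) → ℝ)
    (hf : ∀ (y : Fin n → ℝ) (τ : ℝ), f (y + τ • Pi.single j 1) = f y) (y : Fin n → ℝ)
    (hd : DifferentiableAt ℝ f y) : pd j f y = 0 := by
  unfold pd
  rw [← hd.lineDeriv_eq_fderiv]
  unfold lineDeriv
  have : (fun t : ℝ => f (y + t • Pi.single j 1)) = fun _ => f y := funext (hf y)
  rw [this]
  simp

/-- A continuous linear functional on `ℝ^n` in terms of its values on coordinate vectors. -/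
lemma clm_apply_eq_sum {n : ℕ} (L : (Fin n → ℝ) →L[ℝ] ℝ) (v : Fin n → ℝ) :
    L v = ∑ j, v j * L (Pi.single j 1) := by
  have h1 : v = ∑ j, v j • (Pi.single j (1 : ℝ) : Fin n → ℝ) := by
    funext k
    simp [Finset.sum_apply, Pi.single_apply]
  conv_lhs => rw [h1]
  rw [map_sum]
  apply Finset.sum_congr rfl
  intro j _
  rw [map_smul, smul_eq_mul]

end Vale.Agent.Lib.P134.H28
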