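import Mathlib

/-!
# P134 (helper28): coordinate derivatives and the Laplacian on `ℝ^n = Fin n → ℝ`
-/

namespace Vale.Agent.Lib.P134.H28

/-- `pd i u x` is the derivative of `u` at `x` along the `i`-th coordinate vector,
that is `∂_i u (x)`. -/
noncomputable def pd {n : ℕ} (i : Fin n) (u : (Fin n → ℝ) → ℝ) (x : Fin n → ℝ) : ℝ :=
  fderiv ℝ u x (Pi.single i 1)

/-- The Laplacian `Δ u (x) = ∑ i, ∂_i ∂_i u (x)`. -/
noncomputable def lap {n : ℕ} (u : (Fin n → ℝ) → ℝ) (x : Fin n → ℝ) : ℝ :=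
  ∑ i, pd i (pd i u) x

end Vale.Agent.Lib.P134.H28
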