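import Vale.Agent.Lib.P134.H28.Rigid

/-!
# P134 (helper28): the same rigidity for an arbitrary nonlinearity and an arbitrary bound
-/

namespace Vale.Agent.Lib.P134.H28

open Finset

/-- A bounded `C^2` function on the line with positive derivative cannot satisfy
`h'' = κ h'` with a constant `κ` (any bound `M`). -/
lemma no_exponential_profile_bdd (h : ℝ → ℝ) (hh : ContDiff ℝ 2 h)
    (hpos : ∀ s, 0 < deriv h s) (M : ℝ) (hbd : ∀ s, |h s| ≤ M) (κ : ℝ)
    (hκ : ∀ s, deriv (deriv h) s = κ * deriv h s) : False := by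
  obtain ⟨B, hB⟩ : ∃ B : ℝ, B = |M| + 1 := ⟨_, rfl⟩
  have hBpos : 0 < B := by rw [hB]; positivity
  have hMB : M ≤ B := by rw [hB]; linarith [le_abs_self M]
  have hder : deriv (fun s => h s / B) = fun s => deriv h s / B := by
    funext s
    exact deriv_div_const B
  refine no_exponential_profile (fun s => h s / B) (hh.div_const B) ?_ ?_ κ ?_
  · intro s
    rw [hder]
    exact div_pos (hpos s) hBpos
  · intro s
    rw [abs_div, abs_of_pos hBpos, div_le_one hBpos]
    exact (hbd s).trans hMB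
  · intro s
    rw [hder]
    rw [deriv_div_const, hκ s]
    ring

theorem translate_rigidity_general (n : ℕ) (j0 : Fin n) (u : (Fin n → ℝ) → ℝ) (h : ℝ → ℝ)
    (ψ : (Fin n → ℝ) → ℝ) (F : ℝ → ℝ) (M : ℝ) (hh : ContDiff ℝ 2 h) (hψ : ContDiff ℝ 3 ψ)
    (hψj : ∀ (x : Fin n → ℝ) (τ : ℝ), ψ (x + τ • Pi.single j0 1) = ψ x)
    (hu : ∀ x, u x = h (x j0 - ψ x))
    (hAC : ∀ x, lap u x = F (u x))
    (hbd : ∀ x, |u x| ≤ M)
    (hmono : ∀ x, 0 < pd j0 u x) :
    (∃ (a : Fin n → ℝ) (b : ℝ), ∀ x, ψ x = b + ∑ i, a i * x i) ∧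
      ∃ e : Fin n → ℝ, ∑ i, e i ^ 2 = 1 ∧ ∃ H : ℝ → ℝ, ∀ x, u x = H (∑ i, e i * x i) := by
  have hu' : u = fun y => h (y j0 - ψ y) := funext hu
  subst hu'
  have hd1 : Differentiable ℝ h := hh.differentiable (by norm_num)
  have hψd : Differentiable ℝ ψ := hψ.differentiable (by norm_num)
  have hpd : ∀ i, Differentiable ℝ (pd i ψ) := fun i =>
    (contDiff_pd (m := 2) i hψ (by norm_num)).differentiable (by norm_num)
  -- translation along the distinguished coordinate
  have hshift : ∀ (x : Fin n → ℝ) (s : ℝ), ∃ x' : Fin n → ℝ, x' j0 - ψ x' = s ∧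
      gradSq ψ x' = gradSq ψ x ∧ lap ψ x' = lap ψ x := by
    intro x s
    refine ⟨x + (s - (x j0 - ψ x)) • Pi.single j0 1, ?_, ?_, ?_⟩
    · rw [hψj]
      simp
      ring
    · unfold gradSq
      apply Finset.sum_congr rfl
      intro i _
      rw [pd_translate i ψ _ (fun y => hψj y _) x]
    · unfold lap
      apply Finset.sum_congr rfl
      intro i _
      exact pd_translate i (pd i ψ) _ (fun y => pd_translate i ψ _ (fun z => hψj z _) y) x
  -- the profile equation
  have hK : ∀ (x : Fin n → ℝ) (s : ℝ),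
      deriv (deriv h) s * (1 + gradSq ψ x) - deriv h s * lap ψ x = F (h s) := by
    intro x s
    obtain ⟨x', hx's, hp, hq⟩ := hshift x s
    have h1 := hAC x'
    rw [lap_profile j0 h ψ hh hψ hψj x', hx's, hp, hq] at h1
    simp only [hx's] at h1
    exact h1
  have hpos : ∀ s, 0 < deriv h s := by
    intro s
    obtain ⟨x', hx's, -, -⟩ := hshift 0 s
    have h1 := hmono x'
    rw [pd_profile j0 h ψ hd1 hψd j0 x', hx's, pd_invariant j0 ψ hψj x' (hψd x')] at h1
    simpa using h1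
  have hbd' : ∀ s, |h s| ≤ M := by
    intro s
    obtain ⟨x', hx's, -, -⟩ := hshift 0 s
    have h1 := hbd x'
    simp only [hx's] at h1
    exact h1
  -- the squared gradient of `ψ` is constant
  have hpconst : ∀ x y, gradSq ψ x = gradSq ψ y := by
    intro x y
    by_contra hne
    have hne' : gradSq ψ x - gradSq ψ y ≠ 0 := sub_ne_zero.mpr hne
    apply no_exponential_profile_bdd h hh hpos M hbd'
      ((lap ψ x - lap ψ y) / (gradSq ψ x - gradSq ψ y))
    intro s
    have h1 := hK x s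
    have h2 := hK y s
    field_simp
    linarith
  -- the Laplacian of `ψ` is constant
  have hqconst : ∀ x y, lap ψ x = lap ψ y := by
    intro x y
    have h1 := hK x 0
    have h2 := hK y 0
    rw [hpconst x y] at h1
    have h3 : deriv h 0 * (lap ψ x - lap ψ y) = 0 := by linarith
    rcases mul_eq_zero.mp h3 with h4 | h4
    · exact absurd h4 (hpos 0).ne'
    · linarith
  have hz := hessian_zero_of_const ψ hψ hpconst hqconst
  have haff := affine_of_hessian_zero ψ hψ hz
  refine ⟨⟨fun i => pd i ψ 0, ψ 0, haff⟩, ?_⟩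
  -- the direction
  have ha0 : pd j0 ψ 0 = 0 := pd_invariant j0 ψ hψj 0 (hψd 0)
  obtain ⟨e, he⟩ : ∃ e : Fin n → ℝ, e = fun i => (if i = j0 then (1 : ℝ) else 0) - pd i ψ 0 :=
    ⟨_, rfl⟩
  have hS : ∑ i, e i ^ 2 = 1 + ∑ i, pd i ψ 0 ^ 2 := by
    rw [he]
    exact sum_sq_shift j0 (fun i => pd i ψ 0) ha0
  have hSpos : 0 < ∑ i, e i ^ 2 := by
    rw [hS]
    have : 0 ≤ ∑ i, pd i ψ 0 ^ 2 := Finset.sum_nonneg (fun i _ => sq_nonneg _)
    linarith
  obtain ⟨N, hN⟩ : ∃ N : ℝ, N = Real.sqrt (∑ i, e i ^ 2) := ⟨_, rfl⟩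
  have hNpos : 0 < N := by rw [hN]; exact Real.sqrt_pos.mpr hSpos
  have hNsq : N ^ 2 = ∑ i, e i ^ 2 := by rw [hN]; exact Real.sq_sqrt hSpos.le
  refine ⟨fun i => e i / N, ?_, fun t => h (N * t - ψ 0), ?_⟩
  · have : ∀ i, (e i / N) ^ 2 = e i ^ 2 / N ^ 2 := fun i => div_pow _ _ _
    simp_rw [this]
    rw [← Finset.sum_div, hNsq, div_self hSpos.ne']
  · intro x
    have h1 : N * ∑ i, e i / N * x i = ∑ i, e i * x i := by
      rw [Finset.mul_sum]
      apply Finset.sum_congr rfl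
      intro i _
      field_simp
    have h2 : ∑ i, e i * x i = x j0 - ∑ i, pd i ψ 0 * x i := by
      rw [he]
      simp only [sub_mul, Finset.sum_sub_distrib]
      simp
    show h (x j0 - ψ x) = h (N * ∑ i, e i / N * x i - ψ 0)
    rw [h1, h2, haff x]
    congr 1
    ring

end Vale.Agent.Lib.P134.H28
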