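import Mathlib

/-!
# P134 (helper28): a bounded increasing profile cannot satisfy `h'' = κ h'`
-/

namespace Vale.Agent.Lib.P134.H28

open Set

lemma deriv_sub_linear (h : ℝ → ℝ) (hd1 : Differentiable ℝ h) (A s : ℝ) :
    deriv (fun s => h s - A * s) s = deriv h s - A := by
  have h1 : HasDerivAt (fun s => h s - A * s) (deriv h s - A * 1) s :=
    (hd1 s).hasDerivAt.sub ((hasDerivAt_id s).const_mul A)
  rw [h1.deriv, mul_one]

/-- A bounded `C^2` function on the line with positive derivative cannot satisfy
`h'' = κ h'` with a constant `κ`. -/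
lemma no_exponential_profile (h : ℝ → ℝ) (hh : ContDiff ℝ 2 h) (hpos : ∀ s, 0 < deriv h s)
    (hbd : ∀ s, |h s| ≤ 1) (κ : ℝ) (hκ : ∀ s, deriv (deriv h) s = κ * deriv h s) : False := by
  have hd1 : Differentiable ℝ h := hh.differentiable (by norm_num)
  have hd2 : Differentiable ℝ (deriv h) := by
    have hc : ContDiff ℝ 1 (deriv h) := by
      have h' := ContDiff.iterate_deriv' 1 1 (f := h) (by exact_mod_cast hh)
      simpa using h'
    exact hc.differentiable (by norm_num)
  obtain ⟨A, hA⟩ : ∃ A : ℝ, A = deriv h 0 := ⟨_, rfl⟩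
  have hApos : 0 < A := by rw [hA]; exact hpos 0
  have hcont : Continuous (fun s => h s - A * s) :=
    hd1.continuous.sub (continuous_const.mul continuous_id)
  have hdiff : Differentiable ℝ (fun s => h s - A * s) :=
    hd1.sub ((differentiable_const A).mul differentiable_id)
  have e1 : A * (3 / A) = 3 := by field_simp
  rcases le_total 0 κ with hk | hk
  · have hmono : Monotone (deriv h) :=
      monotone_of_deriv_nonneg hd2 (fun s => by rw [hκ s]; exact mul_nonneg hk (hpos s).le)
    have hg : MonotoneOn (fun s => h s - A * s) (Ici 0) := by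
      apply monotoneOn_of_deriv_nonneg (convex_Ici 0) hcont.continuousOn
        hdiff.differentiableOn
      intro s hs
      rw [interior_Ici] at hs
      rw [deriv_sub_linear h hd1 A s]
      have := hmono hs.le
      rw [← hA] at this
      linarith
    have h3 := hg (mem_Ici.mpr le_rfl) (mem_Ici.mpr (by positivity : (0 : ℝ) ≤ 3 / A))
      (by positivity)
    simp only [mul_zero, sub_zero] at h3
    have b1 := abs_le.mp (hbd 0)
    have b2 := abs_le.mp (hbd (3 / A))
    linarith
  · have hanti : Antitone (deriv h) :=
      antitone_of_deriv_nonpos hd2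
        (fun s => by rw [hκ s]; exact mul_nonpos_of_nonpos_of_nonneg hk (hpos s).le)
    have hg : MonotoneOn (fun s => h s - A * s) (Iic 0) := by
      apply monotoneOn_of_deriv_nonneg (convex_Iic 0) hcont.continuousOn
        hdiff.differentiableOn
      intro s hs
      rw [interior_Iic] at hs
      rw [deriv_sub_linear h hd1 A s]
      have := hanti hs.le
      rw [← hA] at this
      linarith
    have hneg : -(3 / A) ≤ 0 := by
      have : (0 : ℝ) ≤ 3 / A := by positivity
      linarith
    have h3 := hg (mem_Iic.mpr hneg) (mem_Iic.mpr le_rfl) hneg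
    simp only [mul_zero, sub_zero, mul_neg] at h3
    have b1 := abs_le.mp (hbd 0)
    have b2 := abs_le.mp (hbd (-(3 / A)))
    linarith

end Vale.Agent.Lib.P134.H28
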