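import Vale.Agent.Lib.P134.H28.Calc
import Vale.Agent.Lib.P134.H28.Ode

/-!
# P134 (helper28): the Laplacian of `h (x_j - ψ x)`
-/

namespace Vale.Agent.Lib.P134.H28

open Finset

/-- The squared Euclidean norm of the gradient, `∑ i, (∂_i ψ)^2`. -/
noncomputable def gradSq {n : ℕ} (ψ : (Fin n → ℝ) → ℝ) (x : Fin n → ℝ) : ℝ :=
  ∑ i, pd i ψ x ^ 2

lemma pd_profile {n : ℕ} (j0 : Fin n) (h : ℝ → ℝ) (ψ : (Fin n → ℝ) → ℝ)
    (hd1 : Differentiable ℝ h) (hψd : Differentiable ℝ ψ) (i : Fin n) (y : Fin n → ℝ) :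
    pd i (fun y => h (y j0 - ψ y)) y =
      deriv h (y j0 - ψ y) * ((if i = j0 then 1 else 0) - pd i ψ y) := by
  have hc : DifferentiableAt ℝ (fun y : Fin n → ℝ => y j0) y := by fun_prop
  rw [pd_comp i h (fun y => y j0 - ψ y) y (hd1 _) (hc.sub (hψd y)),
    pd_sub i _ _ y hc (hψd y), pd_coord]

/-- The Laplacian of a function whose level sets are translates, along the `j0`-th
coordinate direction, of the graph of `ψ`. -/
lemma lap_profile {n : ℕ} (j0 : Fin n) (h : ℝ → ℝ) (ψ : (Fin n → ℝ) → ℝ)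
    (hh : ContDiff ℝ 2 h) (hψ : ContDiff ℝ 3 ψ)
    (hψj : ∀ (x : Fin n → ℝ) (τ : ℝ), ψ (x + τ • Pi.single j0 1) = ψ x) (x : Fin n → ℝ) :
    lap (fun y => h (y j0 - ψ y)) x =
      deriv (deriv h) (x j0 - ψ x) * (1 + gradSq ψ x) - deriv h (x j0 - ψ x) * lap ψ x := by
  have hd1 : Differentiable ℝ h := hh.differentiable (by norm_num)
  have hd2 : Differentiable ℝ (deriv h) := by
    have hc : ContDiff ℝ 1 (deriv h) := by
      have h' := ContDiff.iterate_deriv' 1 1 (f := h) (by exact_mod_cast hh)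
      simpa using h'
    exact hc.differentiable (by norm_num)
  have hψd : Differentiable ℝ ψ := hψ.differentiable (by norm_num)
  have hpd : ∀ i, Differentiable ℝ (pd i ψ) := fun i =>
    (contDiff_pd (m := 2) i hψ (by norm_num)).differentiable (by norm_num)
  have hφd : Differentiable ℝ (fun y : Fin n → ℝ => y j0 - ψ y) := by
    intro y
    have hc : DifferentiableAt ℝ (fun y : Fin n → ℝ => y j0) y := by fun_prop
    exact hc.sub (hψd y)
  have h0 : pd j0 ψ x = 0 := pd_invariant j0 ψ hψj x (hψd x)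
  have hfirst : ∀ i : Fin n, pd i (fun y => h (y j0 - ψ y)) =
      fun y => deriv h (y j0 - ψ y) * ((if i = j0 then 1 else 0) - pd i ψ y) :=
    fun i => funext (fun y => pd_profile j0 h ψ hd1 hψd i y)
  have hsecond : ∀ i : Fin n, pd i (pd i (fun y => h (y j0 - ψ y))) x =
      deriv (deriv h) (x j0 - ψ x) * ((if i = j0 then 1 else 0) - pd i ψ x) ^ 2
        - deriv h (x j0 - ψ x) * pd i (pd i ψ) x := by
    intro i
    rw [hfirst i]
    have hA : DifferentiableAt ℝ (fun y : Fin n → ℝ => deriv h (y j0 - ψ y)) x :=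
      (hd2 _).comp x (hφd x)
    have hB : DifferentiableAt ℝ
        (fun y : Fin n → ℝ => (if i = j0 then (1 : ℝ) else 0) - pd i ψ y) x :=
      (differentiableAt_const _).sub (hpd i x)
    rw [pd_mul i _ _ x hA hB, pd_comp i (deriv h) (fun y => y j0 - ψ y) x (hd2 _) (hφd x),
      pd_sub i _ _ x (differentiableAt_const _) (hpd i x), pd_const]
    have hc : DifferentiableAt ℝ (fun y : Fin n → ℝ => y j0) x := by fun_prop
    rw [pd_sub i _ _ x hc (hψd x), pd_coord]
    ring
  have hsum : ∑ i, ((if i = j0 then (1 : ℝ) else 0) - pd i ψ x) ^ 2 = 1 + gradSq ψ x := by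
    have hterm : ∀ i, ((if i = j0 then (1 : ℝ) else 0) - pd i ψ x) ^ 2 =
        (if i = j0 then (1 : ℝ) else 0) + pd i ψ x ^ 2 := by
      intro i
      by_cases hi : i = j0
      · subst hi
        simp [h0]
      · simp [hi]
    simp_rw [hterm]
    rw [Finset.sum_add_distrib]
    simp [gradSq]
  unfold lap
  simp_rw [hsecond]
  rw [Finset.sum_sub_distrib, ← Finset.mul_sum, ← Finset.mul_sum, hsum]

end Vale.Agent.Lib.P134.H28
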